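import Vale.Agent.P305.OddDefs
import Mathlib.Analysis.Convex.Segment
import Mathlib.Combinatorics.SimpleGraph.Connectivity.Connected

/-! Complements of intersection graphs of balls of planar metrics and of non-piercing sets. -/

set_option autoImplicit false

namespace Vale.Agent.P305.H227

/-- Planar graphs (finite or infinite), by straight-line drawings: different vertices are different
points of the plane, and two edges without common end are disjoint segments. -/
def IsPlanar {W : Type} (H : SimpleGraph W) : Prop :=
  ∃ pos : W → ℝ × ℝ, Function.Injective pos ∧ ∀ a b c d : W, H.Adj a b → H.Adj c d →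
    a ≠ c → a ≠ d → b ≠ c → b ≠ d →
    Disjoint (segment ℝ (pos a) (pos b)) (segment ℝ (pos c) (pos d))

/-- length of a walk, for given edge lengths -/
def walkLength {W : Type} {H : SimpleGraph W} (ℓ : Sym2 W → ℝ) {a b : W} (p : H.Walk a b) : ℝ :=
  (p.edges.map ℓ).sum

/-- `G` is the complement of the intersection graph of balls of a planar metric: for some planar
graph `H` with edge lengths there are centres `c v` among the vertices of `H` and real radii `r v`
such that two different vertices `u`, `v` are adjacent in `G` iff the distance of `c u` and `c v` is
greater than `r u + r v`, that is, every walk in `H` from `c u` to `c v` is longer than this. -/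
def IsCoPlanarBall {V : Type} (G : SimpleGraph V) : Prop :=
  ∃ (W : Type) (H : SimpleGraph W) (ℓ : Sym2 W → ℝ) (c : V → W) (r : V → ℝ),
    IsPlanar H ∧ ∀ u v, u ≠ v →
      (G.Adj u v ↔ ∀ p : H.Walk (c u) (c v), r u + r v < walkLength ℓ p)

/-- `G` is the complement of the intersection graph of non-piercing connected sets: for some planar
graph `H` there are vertex sets `S v` of `H` with `H[S v]` and `H[S u \ S v]` connected (or empty)
for all `u`, `v`, such that two different vertices `u`, `v` are adjacent in `G` iff `S u` and `S v`
are disjoint. -/
def IsCoNonPiercing {V : Type} (G : SimpleGraph V) : Prop :=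
  ∃ (W : Type) (H : SimpleGraph W) (S : V → Set W), IsPlanar H ∧
    (∀ v, (H.induce (S v)).Preconnected) ∧ (∀ u v, (H.induce (S u \ S v)).Preconnected) ∧
    ∀ u v, u ≠ v → (G.Adj u v ↔ Disjoint (S u) (S v))

end Vale.Agent.P305.H227
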