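import Vale.Agent.P305.R2.H227.Seg
import Mathlib.Combinatorics.SimpleGraph.Connectivity.Connected
import Mathlib.Algebra.BigOperators.Group.Finset.Basic

/-! Walks in a plane graph: the mod two pairing and its sum over a torus. -/

set_option autoImplicit false

namespace Vale.Agent.P305.H227

variable {W : Type} {H : SimpleGraph W}

/-- crossings of a walk with the ray below a point -/
noncomputable def cw (pos : W → ℝ × ℝ) (x : ℝ × ℝ) : {a b : W} → H.Walk a b → ZMod 2
  | _, _, .nil => 0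
  | a, _, .cons (v := v) _ p => chi (pos a) (pos v) x + cw pos x p

/-- the pairing of two walks -/
noncomputable def cr (pos : W → ℝ × ℝ) {a b c d : W} (P : H.Walk a b) (Q : H.Walk c d) : ZMod 2 :=
  cw pos (pos c) P + cw pos (pos d) P + cw pos (pos a) Q + cw pos (pos b) Q +
    (ob (pos a) (pos c) + ob (pos a) (pos d) + ob (pos b) (pos c) + ob (pos b) (pos d))

theorem cw_nil (pos : W → ℝ × ℝ) (x : ℝ × ℝ) (a : W) :
    cw pos x (SimpleGraph.Walk.nil : H.Walk a a) = 0 := rfl

theorem cw_cons (pos : W → ℝ × ℝ) (x : ℝ × ℝ) {a v b : W} (h : H.Adj a v) (p : H.Walk v b) :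
    cw pos x (.cons h p) = chi (pos a) (pos v) x + cw pos x p := rfl

theorem cw_append (pos : W → ℝ × ℝ) (x : ℝ × ℝ) {a b c : W} (p : H.Walk a b) (q : H.Walk b c) :
    cw pos x (p.append q) = cw pos x p + cw pos x q := by
  induction p with
  | nil => rw [SimpleGraph.Walk.nil_append, cw_nil, zero_add]
  | cons h p ih => rw [SimpleGraph.Walk.cons_append, cw_cons, cw_cons, ih, add_assoc]

theorem cr_append_left (pos : W → ℝ × ℝ) {a b c d e : W} (p : H.Walk a b) (q : H.Walk b c)
    (Q : H.Walk d e) : cr pos (p.append q) Q = cr pos p Q + cr pos q Q := by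
  unfold cr
  rw [cw_append, cw_append]
  linear_combination (-(cw pos (pos b) Q) - ob (pos b) (pos d) - ob (pos b) (pos e)) * two_zero

theorem cr_append_right (pos : W → ℝ × ℝ) {a b c d e : W} (p : H.Walk a b) (q : H.Walk b c)
    (Q : H.Walk d e) : cr pos Q (p.append q) = cr pos Q p + cr pos Q q := by
  unfold cr
  rw [cw_append, cw_append]
  linear_combination (-(cw pos (pos b) Q) - ob (pos d) (pos b) - ob (pos e) (pos b)) * two_zero

theorem cr_cons_left (pos : W → ℝ × ℝ) {a v c d e : W} (h : H.Adj a v) (q : H.Walk v c)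
    (Q : H.Walk d e) :
    cr pos (.cons h q) Q = cr pos (.cons h .nil : H.Walk a v) Q + cr pos q Q := by
  rw [← cr_append_left]
  rfl

theorem cr_cons_right (pos : W → ℝ × ℝ) {a v c d e : W} (h : H.Adj a v) (q : H.Walk v c)
    (Q : H.Walk d e) :
    cr pos Q (.cons h q) = cr pos Q (.cons h .nil : H.Walk a v) + cr pos Q q := by
  rw [← cr_append_right]
  rfl

theorem cr_nil_left (pos : W → ℝ × ℝ) {a d e : W} (Q : H.Walk d e) :
    cr pos (.nil : H.Walk a a) Q = 0 := by
  unfold cr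
  rw [cw_nil, cw_nil]
  linear_combination (cw pos (pos a) Q + ob (pos a) (pos d) + ob (pos a) (pos e)) * two_zero

theorem cr_nil_right (pos : W → ℝ × ℝ) {a d e : W} (Q : H.Walk d e) :
    cr pos Q (.nil : H.Walk a a) = 0 := by
  unfold cr
  rw [cw_nil, cw_nil]
  linear_combination (cw pos (pos a) Q + ob (pos d) (pos a) + ob (pos e) (pos a)) * two_zero

/-- a straight-line drawing in which edges without common end do not meet -/
def IsDrawing (H : SimpleGraph W) (pos : W → ℝ × ℝ) : Prop :=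
  Function.Injective pos ∧ ∀ a b c d : W, H.Adj a b → H.Adj c d →
    a ≠ c → a ≠ d → b ≠ c → b ≠ d →
    Disjoint (segment ℝ (pos a) (pos b)) (segment ℝ (pos c) (pos d))

theorem cr_disjoint {pos : W → ℝ × ℝ} (hH : IsDrawing H pos) {a b c d : W} (P : H.Walk a b)
    (Q : H.Walk c d) (h : ∀ x ∈ P.support, x ∉ Q.support) : cr pos P Q = 0 := by
  induction P with
  | nil => exact cr_nil_left pos Q
  | @cons a v b hav p ih =>
    have hih : ∀ x ∈ p.support, x ∉ Q.support := by
      intro x hx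
      refine h x ?_
      rw [SimpleGraph.Walk.support_cons]
      exact List.mem_cons_of_mem _ hx
    rw [cr_cons_left, ih hih, add_zero]
    have ha : a ∉ Q.support := h a (SimpleGraph.Walk.start_mem_support _)
    have hv : v ∉ Q.support := h v (by
      rw [SimpleGraph.Walk.support_cons]
      exact List.mem_cons_of_mem _ (SimpleGraph.Walk.start_mem_support _))
    clear h ih hih
    induction Q with
    | nil => exact cr_nil_right pos _
    | @cons c w d hcw q ih =>
      rw [SimpleGraph.Walk.support_cons, List.mem_cons, not_or] at ha hv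
      rw [cr_cons_right, ih ha.2 hv.2, add_zero]
      have haw : a ≠ w := fun h1 => ha.2 (by rw [h1]; exact q.start_mem_support)
      have hvw : v ≠ w := fun h1 => hv.2 (by rw [h1]; exact q.start_mem_support)
      have h1 := key (hH.2 a v c w hav hcw ha.1 haw hv.1 hvw)
      unfold cr
      simp only [cw_cons, cw_nil, add_zero]
      exact h1

/-- the sum over a torus -/
theorem torus {pos : W → ℝ × ℝ} {s t : ℕ} [NeZero s] [NeZero t] (hs : Odd s) (ht : Odd t)
    (x : ZMod s → W) (y : ZMod t → W) (hy : ∀ j, pos (y j) ≠ pos (y (j + 1)))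
    (P : ∀ i j, H.Walk (x i) (y j)) :
    ∑ i : ZMod s, ∑ j : ZMod t, (cr pos (P i j) (P (i + 1) (j + 1)) +
      cr pos (P i j) (P (i + 1) (j - 1))) = 1 := by
  obtain ⟨X, hX⟩ : ∃ X : ZMod s → ZMod t → ZMod s → ZMod 2,
      X = fun i j k => cw pos (pos (x k)) (P i j) := ⟨_, rfl⟩
  obtain ⟨Y, hY⟩ : ∃ Y : ZMod s → ZMod t → ZMod t → ZMod 2,
      Y = fun i j k => cw pos (pos (y k)) (P i j) := ⟨_, rfl⟩
  have e0 : ∀ i j, cr pos (P i j) (P (i + 1) (j + 1)) + cr pos (P i j) (P (i + 1) (j - 1)) =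
      (Y i j (j + 1) + Y i j (j - 1) + Y (i + 1) (j + 1) j + Y (i + 1) (j - 1) j) +
      (X (i + 1) (j + 1) i + X (i + 1) (j - 1) i) +
      (ob (pos (x i)) (pos (y (j + 1))) + ob (pos (x i)) (pos (y (j - 1)))) +
      (ob (pos (y j)) (pos (y (j + 1))) + ob (pos (y j)) (pos (y (j - 1)))) := by
    intro i j
    rw [hX, hY]
    unfold cr
    linear_combination (cw pos (pos (x (i + 1))) (P i j) + ob (pos (x i)) (pos (x (i + 1))) +
      ob (pos (y j)) (pos (x (i + 1)))) * two_zero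
  simp only [e0, Finset.sum_add_distrib]
  have si : ∀ f : ZMod s → ZMod 2, ∑ i, f (i + 1) = ∑ i, f i := fun f =>
    Equiv.sum_comp (Equiv.addRight (1 : ZMod s)) f
  have sj : ∀ f : ZMod t → ZMod 2, ∑ j, f (j + 1) = ∑ j, f j := fun f =>
    Equiv.sum_comp (Equiv.addRight (1 : ZMod t)) f
  have sj' : ∀ f : ZMod t → ZMod 2, ∑ j, f (j - 1) = ∑ j, f j := fun f =>
    Equiv.sum_comp (Equiv.subRight (1 : ZMod t)) f
  have y1 : ∑ i, ∑ j, Y (i + 1) (j + 1) j = ∑ i, ∑ j, Y i j (j - 1) := by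
    rw [si (fun i => ∑ j, Y i (j + 1) j)]
    refine Finset.sum_congr rfl fun i _ => ?_
    rw [← sj (fun j => Y i j (j - 1))]
    simp only [add_sub_cancel_right]
  have y2 : ∑ i, ∑ j, Y (i + 1) (j - 1) j = ∑ i, ∑ j, Y i j (j + 1) := by
    rw [si (fun i => ∑ j, Y i (j - 1) j)]
    refine Finset.sum_congr rfl fun i _ => ?_
    rw [← sj' (fun j => Y i j (j + 1))]
    simp only [sub_add_cancel]
  have x1 : ∑ i, ∑ j, X (i + 1) (j + 1) i = ∑ i, ∑ j, X (i + 1) j i :=
    Finset.sum_congr rfl fun i _ => sj (fun j => X (i + 1) j i)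
  have x2 : ∑ i, ∑ j, X (i + 1) (j - 1) i = ∑ i, ∑ j, X (i + 1) j i :=
    Finset.sum_congr rfl fun i _ => sj' (fun j => X (i + 1) j i)
  have o1 : ∑ i, ∑ j, ob (pos (x i)) (pos (y (j + 1))) =
      ∑ i, ∑ j, ob (pos (x i)) (pos (y j)) :=
    Finset.sum_congr rfl fun i _ => sj (fun j => ob (pos (x i)) (pos (y j)))
  have o2 : ∑ i, ∑ j, ob (pos (x i)) (pos (y (j - 1))) =
      ∑ i, ∑ j, ob (pos (x i)) (pos (y j)) :=
    Finset.sum_congr rfl fun i _ => sj' (fun j => ob (pos (x i)) (pos (y j)))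
  have o3 : ∑ j, ob (pos (y j)) (pos (y (j - 1))) = ∑ j, ob (pos (y (j + 1))) (pos (y j)) := by
    rw [← sj (fun j => ob (pos (y j)) (pos (y (j - 1))))]
    simp only [add_sub_cancel_right]
  have o4 : ∑ j, ob (pos (y j)) (pos (y (j + 1))) + ∑ j, ob (pos (y j)) (pos (y (j - 1))) = 1 := by
    rw [o3, ← Finset.sum_add_distrib, Finset.sum_congr rfl fun j _ => ob_add (hy j),
      Finset.sum_const, Finset.card_univ, ZMod.card, nsmul_eq_mul, mul_one]
    exact (ZMod.natCast_eq_one_iff_odd).2 ht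
  have o5 : ∑ _i : ZMod s, ∑ j, ob (pos (y j)) (pos (y (j + 1))) +
      ∑ _i : ZMod s, ∑ j, ob (pos (y j)) (pos (y (j - 1))) = 1 := by
    rw [← Finset.sum_add_distrib, Finset.sum_congr rfl fun i _ => o4, Finset.sum_const,
      Finset.card_univ, ZMod.card, nsmul_eq_mul, mul_one]
    exact (ZMod.natCast_eq_one_iff_odd).2 hs
  rw [y1, y2, x1, x2, o1, o2]
  linear_combination o5 + (∑ i, ∑ j, Y i j (j + 1) + ∑ i, ∑ j, Y i j (j - 1) +
    ∑ i, ∑ j, X (i + 1) j i + ∑ i, ∑ j, ob (pos (x i)) (pos (y j))) * two_zero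

end Vale.Agent.P305.H227
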