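import Vale.Agent.P305.R2.H227.Defs
import Vale.Agent.P305.R2.H227.Walks
import Vale.Agent.P305.H529.Pair

/-! Balls of planar metrics. -/

set_option autoImplicit false

namespace Vale.Agent.P305.H227

theorem cyc {V : Type} {s : ℕ} [NeZero s] (a : ℕ → V) (h : a s = a 0) (i : ZMod s) :
    a (i + 1).val = a (i.val + 1) := by
  have h1 : (i + 1).val = (i.val + 1) % s := by
    rw [ZMod.val_add, ZMod.val_one_eq_one_mod, Nat.add_mod_mod]
  have h2 := ZMod.val_lt i
  rw [h1]
  rcases Nat.lt_or_ge (i.val + 1) s with h3 | h3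
  · rw [Nat.mod_eq_of_lt h3]
  · have h4 : i.val + 1 = s := by omega
    rw [h4, Nat.mod_self, h]

/-- an odd closed walk as a cyclic sequence -/
theorem exists_cycle {V : Type} (G : SimpleGraph V) (S : Set V)
    (h : ¬ (G.induce S).IsBipartite) : ∃ (s : ℕ) (_ : NeZero s) (f : ZMod s → V), Odd s ∧
      (∀ i, f i ∈ S) ∧ ∀ i, G.Adj (f i) (f (i + 1)) := by
  obtain ⟨s, a, hs, h0, hS, ha⟩ := H529.exists_odd_walk G S h
  have hz : NeZero s := ⟨fun h => by rw [h] at hs; exact absurd hs (by decide)⟩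
  refine ⟨s, hz, fun i => a i.val, hs, fun i => hS _, fun i => ?_⟩
  simp only [cyc a h0 i]
  exact ha _ (ZMod.val_lt i)

variable {W : Type} {H : SimpleGraph W}

theorem wl_append (ℓ : Sym2 W → ℝ) {a b c : W} (p : H.Walk a b) (q : H.Walk b c) :
    walkLength ℓ (p.append q) = walkLength ℓ p + walkLength ℓ q := by
  unfold walkLength
  rw [SimpleGraph.Walk.edges_append, List.map_append, List.sum_append]

theorem wl_reverse (ℓ : Sym2 W → ℝ) {a b : W} (p : H.Walk a b) :
    walkLength ℓ p.reverse = walkLength ℓ p := by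
  unfold walkLength
  rw [SimpleGraph.Walk.edges_reverse, List.map_reverse, List.sum_reverse]

theorem ball_pair {V : Type} (G : SimpleGraph V) (hG : IsCoPlanarBall G) (S T : Set V)
    (hST : ∀ u ∈ S, ∀ v ∈ T, u ≠ v ∧ ¬ G.Adj u v) (hS : ¬ (G.induce S).IsBipartite)
    (hT : ¬ (G.induce T).IsBipartite) : False := by
  classical
  obtain ⟨W, H, ℓ, c, r, ⟨pos, hpos⟩, hadj⟩ := hG
  obtain ⟨s, _, f, hs, hfS, hf⟩ := exists_cycle G S hS
  obtain ⟨t, _, g, ht, hgT, hg⟩ := exists_cycle G T hT
  have hP : ∀ i j, ∃ p : H.Walk (c (f i)) (c (g j)), walkLength ℓ p ≤ r (f i) + r (g j) := by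
    intro i j
    have h1 := hST _ (hfS i) _ (hgT j)
    rw [hadj _ _ h1.1] at h1
    obtain ⟨p, hp⟩ := not_forall.1 h1.2
    exact ⟨p, not_lt.1 hp⟩
  choose P hP using hP
  have far : ∀ u v, G.Adj u v → ∀ p : H.Walk (c u) (c v), r u + r v < walkLength ℓ p :=
    fun u v h => (hadj u v h.ne).1 h
  have hr : ∀ j, 0 < r (g j) := by
    intro j
    have h2 := far _ _ (hf 0) ((P 0 j).append (P (0 + 1) j).reverse)
    rw [wl_append, wl_reverse] at h2
    linarith [hP 0 j, hP (0 + 1) j]
  have hy : ∀ j, pos (c (g j)) ≠ pos (c (g (j + 1))) := by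
    intro j h
    have h1 := hpos.1 h
    have h2 := far _ _ (hg j) ((SimpleGraph.Walk.nil : H.Walk (c (g j)) (c (g j))).copy rfl h1)
    have h3 : walkLength ℓ ((SimpleGraph.Walk.nil :
        H.Walk (c (g j)) (c (g j))).copy rfl h1) = 0 := by
      unfold walkLength
      rw [SimpleGraph.Walk.edges_copy]
      simp
    rw [h3] at h2
    linarith [hr j, hr (j + 1)]
  have zero : ∀ i k j l, G.Adj (f i) (f k) → G.Adj (g j) (g l) →
      cr pos (P i j) (P k l) = 0 := by
    intro i k j l h1 h2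
    refine cr_disjoint hpos _ _ fun z hz hz' => ?_
    have e1 : walkLength ℓ ((P i j).takeUntil z hz) + walkLength ℓ ((P i j).dropUntil z hz) =
        walkLength ℓ (P i j) := by
      rw [← wl_append, SimpleGraph.Walk.take_spec]
    have e2 : walkLength ℓ ((P k l).takeUntil z hz') + walkLength ℓ ((P k l).dropUntil z hz') =
        walkLength ℓ (P k l) := by
      rw [← wl_append, SimpleGraph.Walk.take_spec]
    have e3 := far _ _ h1 (((P i j).takeUntil z hz).append ((P k l).takeUntil z hz').reverse)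
    have e4 := far _ _ h2 (((P i j).dropUntil z hz).reverse.append ((P k l).dropUntil z hz'))
    rw [wl_append, wl_reverse] at e3 e4
    have e5 := hP i j
    have e6 := hP k l
    linarith
  have h1 := torus (pos := pos) hs ht (fun i => c (f i)) (fun j => c (g j)) hy P
  rw [Finset.sum_eq_zero] at h1
  · exact absurd h1 (by decide)
  intro i _
  refine Finset.sum_eq_zero fun j _ => ?_
  have hg' : G.Adj (g j) (g (j - 1)) := by
    have := hg (j - 1)
    rw [sub_add_cancel] at this
    exact this.symm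
  rw [zero _ _ _ _ (hf i) (hg j), zero _ _ _ _ (hf i) hg', add_zero]

end Vale.Agent.P305.H227
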