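import Vale.Agent.P305.R2.H227.Metric

/-! Non-piercing sets. -/

set_option autoImplicit false

namespace Vale.Agent.P305.H227

variable {W : Type} {H : SimpleGraph W}

theorem walk_out {S : Set W} {x y : S} (p : (H.induce S).Walk x y) :
    ∃ p' : H.Walk x.1 y.1, ∀ z ∈ p'.support, z ∈ S := by
  induction p with
  | @nil x =>
    refine ⟨.nil, fun z hz => ?_⟩
    rw [SimpleGraph.Walk.support_nil, List.mem_singleton] at hz
    rw [hz]
    exact x.2
  | @cons x v y h p ih =>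
    obtain ⟨p', hp⟩ := ih
    have h' : H.Adj x.1 v.1 := h
    refine ⟨.cons h' p', fun z hz => ?_⟩
    rw [SimpleGraph.Walk.support_cons, List.mem_cons] at hz
    rcases hz with rfl | hz
    · exact x.2
    · exact hp z hz

theorem walk_in {S : Set W} (h : (H.induce S).Preconnected) {a b : W} (ha : a ∈ S) (hb : b ∈ S) :
    ∃ p : H.Walk a b, ∀ z ∈ p.support, z ∈ S := by
  obtain ⟨p⟩ := h ⟨a, ha⟩ ⟨b, hb⟩
  exact walk_out p

theorem closing {pos : W → ℝ × ℝ} (hH : IsDrawing H pos) {A B : Set W} {x q q' u u' y : W}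
    (γ : H.Walk x q) (γ' : H.Walk x q') (η : H.Walk u y) (η' : H.Walk u' y) (σ : H.Walk q q')
    (ρ : H.Walk u u') (hγ : ∀ z ∈ γ.support, z ∈ A) (hγ' : ∀ z ∈ γ'.support, z ∈ A)
    (hη : ∀ z ∈ η.support, z ∈ B) (hη' : ∀ z ∈ η'.support, z ∈ B)
    (hσ : ∀ z ∈ σ.support, z ∈ A \ B) (hρ : ∀ z ∈ ρ.support, z ∈ B \ A) :
    cr pos γ η + cr pos γ η' + cr pos γ' η + cr pos γ' η' = 0 := by
  have z1 : cr pos γ ρ = 0 := cr_disjoint hH _ _ fun z h h' => (hρ z h').2 (hγ z h)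
  have z2 : cr pos γ' ρ = 0 := cr_disjoint hH _ _ fun z h h' => (hρ z h').2 (hγ' z h)
  have z3 : cr pos σ η = 0 := cr_disjoint hH _ _ fun z h h' => (hσ z h).2 (hη z h')
  have z4 : cr pos σ η' = 0 := cr_disjoint hH _ _ fun z h h' => (hσ z h).2 (hη' z h')
  have z5 : cr pos σ ρ = 0 := cr_disjoint hH _ _ fun z h h' => (hσ z h).2 (hρ z h').1
  unfold cr at *
  linear_combination (
      cw pos (pos u) γ + cw pos (pos u') γ + cw pos (pos y) γ +
      (cw pos (pos u) γ' + cw pos (pos u') γ' + cw pos (pos y) γ') +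
      (cw pos (pos u) σ + cw pos (pos u') σ + cw pos (pos y) σ) +
      (cw pos (pos x) η + cw pos (pos q) η + cw pos (pos q') η) +
      (cw pos (pos x) η' + cw pos (pos q) η' + cw pos (pos q') η') +
      (cw pos (pos x) ρ + cw pos (pos q) ρ + cw pos (pos q') ρ) +
      2 * (ob (pos x) (pos u) + ob (pos x) (pos u') + ob (pos x) (pos y) +
        ob (pos q) (pos u) + ob (pos q) (pos u') + ob (pos q) (pos y) +
        ob (pos q') (pos u) + ob (pos q') (pos u') + ob (pos q') (pos y))) * two_zero -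
      z1 - z2 - z3 - z4 - z5

/-- exchange of the two walks -/
theorem flip {pos : W → ℝ × ℝ} {a b c d : W} (P : H.Walk a b) (Q : H.Walk c d)
    (h1 : pos a ≠ pos c) (h2 : pos a ≠ pos d) (h4 : pos b ≠ pos d) :
    cr pos P Q = cr pos Q P + (1 + (ob (pos b) (pos c) + ob (pos c) (pos b))) := by
  have e1 := ob_add h1
  have e2 := ob_add h2
  have e4 := ob_add h4
  unfold cr
  linear_combination e1 + e2 + e4 + (1 - ob (pos c) (pos a) - ob (pos d) (pos a) -
    ob (pos d) (pos b) - ob (pos c) (pos b)) * two_zero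

theorem piercing_pair {V : Type} (G : SimpleGraph V) (hG : IsCoNonPiercing G) (S T : Set V)
    (hST : ∀ u ∈ S, ∀ v ∈ T, u ≠ v ∧ ¬ G.Adj u v) (hS : ¬ (G.induce S).IsBipartite)
    (hT : ¬ (G.induce T).IsBipartite) : False := by
  classical
  obtain ⟨W, H, R, ⟨pos, hpos⟩, hcon, hdiff, hadj⟩ := hG
  obtain ⟨s, _, f, hs, hfS, hf⟩ := exists_cycle G S hS
  obtain ⟨t, _, g, ht, hgT, hg⟩ := exists_cycle G T hT
  have hq : ∀ i j, ∃ z, z ∈ R (f i) ∧ z ∈ R (g j) := by
    intro i j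
    have h1 := hST _ (hfS i) _ (hgT j)
    rw [hadj _ _ h1.1, Set.not_disjoint_iff] at h1
    exact h1.2
  choose q hqA hqB using hq
  have dis : ∀ {u v}, G.Adj u v → ∀ z, z ∈ R u → z ∉ R v := fun {u v} h z hz hz' =>
    Set.disjoint_left.1 ((hadj u v h.ne).1 h) hz hz'
  have hg' : ∀ j, G.Adj (g j) (g (j - 1)) := by
    intro j
    have := hg (j - 1)
    rw [sub_add_cancel] at this
    exact this.symm
  have hf' : ∀ i, G.Adj (f i) (f (i - 1)) := by
    intro i
    have := hf (i - 1)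
    rw [sub_add_cancel] at this
    exact this.symm
  have hγ : ∀ i j, ∃ p : H.Walk (q i 0) (q i j), ∀ z ∈ p.support, z ∈ R (f i) :=
    fun i j => walk_in (hcon _) (hqA i 0) (hqA i j)
  have hη : ∀ i j, ∃ p : H.Walk (q i j) (q 0 j), ∀ z ∈ p.support, z ∈ R (g j) :=
    fun i j => walk_in (hcon _) (hqB i j) (hqB 0 j)
  choose γ hγ using hγ
  choose η hη using hη
  have ne : ∀ {z z' : W} {u v}, G.Adj u v → z ∈ R u → z' ∈ R v → pos z ≠ pos z' := by
    intro z z' u v h h1 h2 h3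
    exact dis h z h1 (by rwa [hpos.1 h3])
  obtain ⟨F, hF⟩ : ∃ F : ZMod s → ZMod t → ZMod s → ZMod t → ZMod 2,
      F = fun i j k l => cr pos (γ i j) (η k l) := ⟨_, rfl⟩
  have one : ∀ i k j l, G.Adj (f i) (f k) → G.Adj (g j) (g l) →
      cr pos ((γ i j).append (η i j)) ((γ k l).append (η k l)) =
        F i j k l + F k l i j + (1 + (ob (pos (q 0 j)) (pos (q k 0)) +
          ob (pos (q k 0)) (pos (q 0 j)))) := by
    intro i k j l h1 h2
    have c1 : cr pos (γ i j) (γ k l) = 0 :=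
      cr_disjoint hpos _ _ fun z h h' => dis h1 z (hγ _ _ z h) (hγ _ _ z h')
    have c2 : cr pos (η i j) (η k l) = 0 :=
      cr_disjoint hpos _ _ fun z h h' => dis h2 z (hη _ _ z h) (hη _ _ z h')
    have c3 := flip (pos := pos) (η i j) (γ k l) (ne h1 (hqA i j) (hqA k 0))
      (ne h1 (hqA i j) (hqA k l)) (ne h2 (hqB 0 j) (hqB k l))
    rw [cr_append_left, cr_append_right, cr_append_right, c1, c2, c3, hF]
    ring
  have h1 := torus (pos := pos) hs ht (fun i => q i 0) (fun j => q 0 j)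
    (fun j => ne (hg j) (hqB 0 j) (hqB 0 (j + 1))) (fun i j => (γ i j).append (η i j))
  have e0 : ∀ i j, cr pos ((γ i j).append (η i j)) ((γ (i + 1) (j + 1)).append
        (η (i + 1) (j + 1))) + cr pos ((γ i j).append (η i j))
        ((γ (i + 1) (j - 1)).append (η (i + 1) (j - 1))) =
      F i j (i + 1) (j + 1) + F i j (i + 1) (j - 1) +
        (F (i + 1) (j + 1) i j + F (i + 1) (j - 1) i j) := by
    intro i j
    rw [one _ _ _ _ (hf i) (hg j), one _ _ _ _ (hf i) (hg' j)]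
    linear_combination (1 + (ob (pos (q 0 j)) (pos (q (i + 1) 0)) +
          ob (pos (q (i + 1) 0)) (pos (q 0 j)))) * two_zero
  simp only [e0, Finset.sum_add_distrib] at h1
  have si : ∀ a : ZMod s → ZMod 2, ∑ i, a (i + 1) = ∑ i, a i := fun a =>
    Equiv.sum_comp (Equiv.addRight (1 : ZMod s)) a
  have sj : ∀ a : ZMod t → ZMod 2, ∑ j, a (j + 1) = ∑ j, a j := fun a =>
    Equiv.sum_comp (Equiv.addRight (1 : ZMod t)) a
  have sj' : ∀ a : ZMod t → ZMod 2, ∑ j, a (j - 1) = ∑ j, a j := fun a =>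
    Equiv.sum_comp (Equiv.subRight (1 : ZMod t)) a
  have t1 : ∑ i, ∑ j, F i j (i + 1) (j + 1) = ∑ i, ∑ j, F i (j - 1) (i + 1) j := by
    refine Finset.sum_congr rfl fun i _ => ?_
    rw [← sj (fun j => F i (j - 1) (i + 1) j)]
    simp only [add_sub_cancel_right]
  have t2 : ∑ i, ∑ j, F i j (i + 1) (j - 1) = ∑ i, ∑ j, F i (j + 1) (i + 1) j := by
    refine Finset.sum_congr rfl fun i _ => ?_
    rw [← sj' (fun j => F i (j + 1) (i + 1) j)]
    simp only [sub_add_cancel]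
  have t3 : ∑ i, ∑ j, F (i + 1) (j + 1) i j = ∑ i, ∑ j, F i (j + 1) (i - 1) j := by
    rw [← si (fun i => ∑ j, F i (j + 1) (i - 1) j)]
    simp only [add_sub_cancel_right]
  have t4 : ∑ i, ∑ j, F (i + 1) (j - 1) i j = ∑ i, ∑ j, F i (j - 1) (i - 1) j := by
    rw [← si (fun i => ∑ j, F i (j - 1) (i - 1) j)]
    simp only [add_sub_cancel_right]
  rw [t1, t2, t3, t4] at h1
  have fin : ∀ i j, F i (j - 1) (i + 1) j + F i (j - 1) (i - 1) j + F i (j + 1) (i + 1) j +
      F i (j + 1) (i - 1) j = 0 := by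
    intro i j
    have hj1 : q i (j - 1) ∈ R (f i) \ R (g j) :=
      ⟨hqA _ _, fun h => dis (hg' j) _ h (hqB i (j - 1))⟩
    have hj2 : q i (j + 1) ∈ R (f i) \ R (g j) :=
      ⟨hqA _ _, fun h => dis (hg j) _ h (hqB i (j + 1))⟩
    have hi1 : q (i + 1) j ∈ R (g j) \ R (f i) :=
      ⟨hqB _ _, fun h => dis (hf i) _ h (hqA (i + 1) j)⟩
    have hi2 : q (i - 1) j ∈ R (g j) \ R (f i) :=
      ⟨hqB _ _, fun h => dis (hf' i) _ h (hqA (i - 1) j)⟩
    obtain ⟨σ, hσ⟩ := walk_in (hdiff (f i) (g j)) hj1 hj2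
    obtain ⟨ρ, hρ⟩ := walk_in (hdiff (g j) (f i)) hi1 hi2
    have := closing (pos := pos) hpos (γ i (j - 1)) (γ i (j + 1)) (η (i + 1) j) (η (i - 1) j) σ ρ
      (hγ _ _) (hγ _ _) (hη _ _) (hη _ _) hσ hρ
    rw [hF]
    exact this
  have h2 : ∑ i, ∑ j, (F i (j - 1) (i + 1) j + F i (j - 1) (i - 1) j + F i (j + 1) (i + 1) j +
      F i (j + 1) (i - 1) j) = 0 :=
    Finset.sum_eq_zero fun i _ => Finset.sum_eq_zero fun j _ => fin i j
  simp only [Finset.sum_add_distrib] at h2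
  have h3 : (1 : ZMod 2) = 0 := by linear_combination h2 - h1
  exact absurd h3 (by decide)

end Vale.Agent.P305.H227
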