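import Vale.Agent.P305.H529.Ball.Final
import Vale.Agent.P305.R2.H227.Metric
import Vale.Agent.P305.R2.H227.NonP

/-! Complements of ball graphs of planar metrics and of graphs of non-piercing sets: the packing
number and the algorithms. -/

set_option autoImplicit false

namespace Vale.Agent.P305.H227

open Vale.Agent.P305.H529 Vale.Agent.P305.H287

theorem IsCoPlanarBall.induce {V : Type} {G : SimpleGraph V} (h : IsCoPlanarBall G) (S : Set V) :
    IsCoPlanarBall (G.induce S) := by
  obtain ⟨W, H, ℓ, c, r, hH, hadj⟩ := h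
  exact ⟨W, H, ℓ, fun v => c v, fun v => r v, hH, fun u v huv =>
    hadj u v (fun h => huv (Subtype.ext h))⟩

theorem IsCoNonPiercing.induce {V : Type} {G : SimpleGraph V} (h : IsCoNonPiercing G)
    (S : Set V) : IsCoNonPiercing (G.induce S) := by
  obtain ⟨W, H, R, hH, h1, h2, hadj⟩ := h
  exact ⟨W, H, fun v => R v, hH, fun v => h1 v, fun u v => h2 u v, fun u v huv =>
    hadj u v (fun h => huv (Subtype.ext h))⟩

theorem in_coplanarball {n : ℕ} (G : SimpleGraph (Fin n)) (U : Set (Fin n))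
    (hU : IsCoPlanarBall (G.induce U)) : oddPackingIn G U ≤ 1 :=
  in_le_one G U fun S T => ball_pair (G.induce U) hU S T

theorem in_cononpiercing {n : ℕ} (G : SimpleGraph (Fin n)) (U : Set (Fin n))
    (hU : IsCoNonPiercing (G.induce U)) : oddPackingIn G U ≤ 1 :=
  in_le_one G U fun S T => piercing_pair (G.induce U) hU S T

/-- Complements of ball graphs of planar metrics, or of graphs of non-piercing sets. -/
def IsCoPlanarSets {V : Type} (G : SimpleGraph V) : Prop :=
  IsCoPlanarBall G ∨ IsCoNonPiercing G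

theorem in_cosets {n : ℕ} (G : SimpleGraph (Fin n)) (U : Set (Fin n))
    (hU : IsCoPlanarSets (G.induce U)) : oddPackingIn G U ≤ 1 := by
  rcases hU with h | h
  · exact in_coplanarball G U h
  · exact in_cononpiercing G U h

theorem cosets_reduction (T : ℕ → ℕ → ℕ)
    (hT : ∀ n n' m m', n ≤ n' → m ≤ m' → T n m ≤ T n' m')
    (hP : ∃ P, Solves P (fun _ G => G.IsBipartite) (fun n G => T n G.edgeSet.ncard)) :
    ∃ P C, Solves P (fun _ G => ∀ K : G.ConnectedComponent,
        (G.induce K.supp).IsBipartite ∨ IsCoPlanarSets (G.induce K.supp))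
      fun n G => C * (T (2 * n) (2 * G.edgeSet.ncard) +
        (Nat.log 2 n + 1) * (n + G.edgeSet.ncard + 1)) := by
  obtain ⟨P, C, h⟩ := one_reduction T hT hP
  refine ⟨P, C, h.mono (fun n G hG K => ?_) fun _ _ _ => le_rfl⟩
  rcases hG K with h | h
  · exact (in_bip G _ h).le.trans (by omega)
  · exact in_cosets G _ h

theorem cosets_near (hB : AlmostLinear fun _ G => G.IsBipartite) (κ : ℕ → ℕ)
    (hκ : ∀ ε : ℝ, 0 < ε → ∃ c : ℝ, ∀ N : ℕ, (κ N : ℝ) ≤ c * ((N : ℝ) + 1) ^ ε) :
    AlmostLinear fun n G => ∃ X : Set (Fin n),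
      inducedMatchingAt G X ≤ κ (n + G.edgeSet.ncard) ∧
      ∀ K : G.ConnectedComponent, (G.induce (K.supp \ X)).IsBipartite ∨
        IsCoPlanarSets (G.induce (K.supp \ X)) := by
  obtain ⟨P, T, hP, hT⟩ := comp_near_almostLinear hB κ hκ
  refine ⟨P, T, hP.mono ?_ fun _ _ _ => le_rfl, hT⟩
  rintro n G ⟨X, hX, h⟩
  refine ⟨X, hX, fun K => ?_⟩
  rcases h K with h | h
  · exact (in_bip G _ h).le.trans (by omega)
  · exact in_cosets G _ h

end Vale.Agent.P305.H227
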