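import Mathlib.Analysis.Convex.Segment
import Mathlib.Data.ZMod.Basic
import Mathlib.Tactic

/-! Two disjoint segments of the plane: a mod two identity. -/

set_option autoImplicit false

namespace Vale.Agent.P305.H227

/-- lexicographic order of the plane -/
def Lt (x y : ℝ × ℝ) : Prop := x.1 < y.1 ∨ (x.1 = y.1 ∧ x.2 < y.2)

/-- determinant of two vectors -/
def det (u v : ℝ × ℝ) : ℝ := u.1 * v.2 - u.2 * v.1

open Classical in
/-- order bit -/
noncomputable def ob (x y : ℝ × ℝ) : ZMod 2 := if Lt x y then 1 else 0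

open Classical in
/-- `r` is strictly between `p` and `q` in the order, and strictly below the line -/
noncomputable def chi (p q r : ℝ × ℝ) : ZMod 2 :=
  if (Lt p r ∧ Lt r q ∧ det (q - p) (r - p) < 0) ∨
    (Lt q r ∧ Lt r p ∧ det (p - q) (r - q) < 0) then 1 else 0

theorem Lt.irrefl (x : ℝ × ℝ) : ¬ Lt x x := by simp [Lt]

theorem Lt.trans {x y z : ℝ × ℝ} (h : Lt x y) (h' : Lt y z) : Lt x z := by
  unfold Lt at *
  rcases h with h | ⟨h, h1⟩ <;> rcases h' with h' | ⟨h', h2⟩
  · left; linarith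
  · left; linarith
  · left; linarith
  · right; constructor <;> linarith

theorem Lt.asymm {x y : ℝ × ℝ} (h : Lt x y) : ¬ Lt y x := fun h' => Lt.irrefl x (h.trans h')

theorem lt_or_gt {x y : ℝ × ℝ} (h : x ≠ y) : Lt x y ∨ Lt y x := by
  unfold Lt
  rcases lt_trichotomy x.1 y.1 with h1 | h1 | h1
  · exact Or.inl (Or.inl h1)
  · rcases lt_trichotomy x.2 y.2 with h2 | h2 | h2
    · exact Or.inl (Or.inr ⟨h1, h2⟩)
    · exact absurd (Prod.ext h1 h2) h
    · exact Or.inr (Or.inr ⟨h1.symm, h2⟩)
  · exact Or.inr (Or.inl h1)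

theorem ob_one {x y : ℝ × ℝ} (h : Lt x y) : ob x y = 1 := by simp [ob, h]

theorem ob_zero {x y : ℝ × ℝ} (h : ¬ Lt x y) : ob x y = 0 := by simp [ob, h]

theorem ob_add {x y : ℝ × ℝ} (h : x ≠ y) : ob x y + ob y x = 1 := by
  rcases lt_or_gt h with h | h
  · rw [ob_one h, ob_zero h.asymm, add_zero]
  · rw [ob_one h, ob_zero h.asymm, zero_add]

theorem chi_comm (p q r : ℝ × ℝ) : chi p q r = chi q p r := by
  unfold chi
  congr 1
  exact propext or_comm

theorem two_zero : (2 : ZMod 2) = 0 := rfl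

theorem det_trans {u v w : ℝ × ℝ} (hu : Lt 0 u) (hv : Lt 0 v) (hw : Lt 0 w)
    (h1 : 0 < det u v) (h2 : 0 < det v w) : 0 < det u w := by
  unfold Lt det at *
  simp only [Prod.fst_zero, Prod.snd_zero] at *
  have hu0 : 0 ≤ u.1 := by rcases hu with h | ⟨h, -⟩ <;> linarith
  have hv0 : 0 ≤ v.1 := by rcases hv with h | ⟨h, -⟩ <;> linarith
  have hw0 : 0 ≤ w.1 := by rcases hw with h | ⟨h, -⟩ <;> linarith
  have hu1 : 0 < u.1 := by
    rcases hu with h | ⟨h, h'⟩
    · exact h
    · rw [← h] at h1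
      nlinarith [mul_nonneg h'.le hv0]
  have hv1 : 0 < v.1 := by
    rcases hv with h | ⟨h, h'⟩
    · exact h
    · rw [← h] at h2
      nlinarith [mul_nonneg h'.le hw0]
  have h3 : v.1 * (u.1 * w.2 - u.2 * w.1) =
      w.1 * (u.1 * v.2 - u.2 * v.1) + u.1 * (v.1 * w.2 - v.2 * w.1) := by ring
  have h4 : 0 < v.1 * (u.1 * w.2 - u.2 * w.1) := by
    rw [h3]
    have := mul_nonneg hw0 h1.le
    have := mul_pos hu1 h2
    linarith
  exact (pos_iff_pos_of_mul_pos h4).1 hv1

/-- if the three determinants have the same sign, the segments meet -/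
theorem meet {p u v w : ℝ × ℝ}
    (h : (0 < det u v ∧ 0 < det v w ∧ 0 < det u w) ∨ (det u v < 0 ∧ det v w < 0 ∧ det u w < 0)) :
    ¬ Disjoint (segment ℝ p (p + u + v)) (segment ℝ (p + u) (p + u + v + w)) := by
  rw [Set.not_disjoint_iff]
  obtain ⟨K, hK⟩ : ∃ K, K = det u v + det u w + det v w := ⟨_, rfl⟩
  have hK0 : K ≠ 0 := by
    rcases h with ⟨h1, h2, h3⟩ | ⟨h1, h2, h3⟩
    · rw [hK]; positivity
    · rw [hK]; linarith
  have hσ : 0 ≤ (det u v + det u w) / K ∧ 0 ≤ det v w / K ∧ 0 ≤ det u v / K ∧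
      0 ≤ (det u w + det v w) / K := by
    rcases h with ⟨h1, h2, h3⟩ | ⟨h1, h2, h3⟩
    · have hKp : 0 < K := by rw [hK]; positivity
      refine ⟨?_, ?_, ?_, ?_⟩ <;> exact div_nonneg (by linarith) hKp.le
    · have hKp : K < 0 := by rw [hK]; linarith
      refine ⟨?_, ?_, ?_, ?_⟩ <;> exact div_nonneg_of_nonpos (by linarith) hKp.le
  obtain ⟨g1, g2, g3, g4⟩ := hσ
  refine ⟨p + ((det u v + det u w) / K) • (u + v), ?_, ?_⟩
  · refine ⟨det v w / K, (det u v + det u w) / K, g2, g1, ?_, ?_⟩
    · rw [← add_div, div_eq_one_iff_eq hK0, hK]; ring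
    · have e : det v w / K = 1 - (det u v + det u w) / K := by
        field_simp
        rw [hK]; ring
      rw [e]
      module
  · refine ⟨(det u w + det v w) / K, det u v / K, g4, g3, ?_, ?_⟩
    · rw [← add_div, div_eq_one_iff_eq hK0, hK]; ring
    · have e1 : (det u w + det v w) / K = 1 - det u v / K := by
        field_simp
        rw [hK]; ring
      rw [e1]
      have e2 : ((det u v + det u w) / K) • (u + v) = u + (det u v / K) • (v + w) := by
        have e3 : (det u v + det u w) • (u + v) = K • u + det u v • (v + w) := by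
          rw [hK]
          unfold det
          ext
          · simp only [Prod.smul_fst, Prod.fst_add, smul_eq_mul]; ring
          · simp only [Prod.smul_snd, Prod.snd_add, smul_eq_mul]; ring
        have e4 : ((det u v + det u w) / K) • (u + v) =
            (1 / K) • ((det u v + det u w) • (u + v)) := by
          rw [smul_smul]; congr 1; ring
        rw [e4, e3, smul_add, smul_smul, smul_smul, one_div, inv_mul_cancel₀ hK0, one_smul]
        congr 2
        rw [div_eq_mul_inv, mul_comm]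
      rw [e2]
      module

theorem mem_seg {p q z : ℝ × ℝ} (h1 : Lt p z) (h2 : Lt z q) (h : det (q - p) (z - p) = 0) :
    z ∈ segment ℝ p q := by
  unfold det at h
  simp only [Prod.fst_sub, Prod.snd_sub] at h
  unfold Lt at h1 h2
  by_cases h0 : q.1 = p.1
  · have hz : z.1 = p.1 := by
      rcases h1 with h1 | ⟨h1, -⟩ <;> rcases h2 with h2 | ⟨h2, -⟩ <;> linarith
    have hz1 : p.2 < z.2 := by
      rcases h1 with h1 | ⟨-, h1⟩
      · linarith
      · exact h1
    have hz2 : z.2 < q.2 := by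
      rcases h2 with h2 | ⟨-, h2⟩
      · linarith
      · exact h2
    have hd : 0 < q.2 - p.2 := by linarith
    refine ⟨(q.2 - z.2) / (q.2 - p.2), (z.2 - p.2) / (q.2 - p.2), div_nonneg (by linarith) hd.le,
      div_nonneg (by linarith) hd.le, ?_, ?_⟩
    · rw [← add_div, div_eq_one_iff_eq hd.ne']; ring
    · ext
      · simp only [Prod.fst_add, Prod.smul_fst, smul_eq_mul]
        rw [h0, hz]
        field_simp
        ring
      · simp only [Prod.snd_add, Prod.smul_snd, smul_eq_mul]
        field_simp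
        ring
  · have hz1 : p.1 ≤ z.1 := by rcases h1 with h1 | ⟨h1, -⟩ <;> linarith
    have hz2 : z.1 ≤ q.1 := by rcases h2 with h2 | ⟨h2, -⟩ <;> linarith
    have hd : 0 < q.1 - p.1 := by
      rcases lt_or_eq_of_le (hz1.trans hz2) with h3 | h3
      · linarith
      · exact absurd h3.symm h0
    refine ⟨(q.1 - z.1) / (q.1 - p.1), (z.1 - p.1) / (q.1 - p.1), div_nonneg (by linarith) hd.le,
      div_nonneg (by linarith) hd.le, ?_, ?_⟩
    · rw [← add_div, div_eq_one_iff_eq hd.ne']; ring
    · ext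
      · simp only [Prod.fst_add, Prod.smul_fst, smul_eq_mul]
        field_simp
        ring
      · simp only [Prod.snd_add, Prod.smul_snd, smul_eq_mul]
        field_simp
        linarith

theorem lt_zero_sub {p q : ℝ × ℝ} (h : Lt p q) : Lt 0 (q - p) := by
  unfold Lt at *
  simp only [Prod.fst_zero, Prod.snd_zero, Prod.fst_sub, Prod.snd_sub]
  rcases h with h | ⟨h, h'⟩
  · left; linarith
  · right; constructor <;> linarith

/-- the interleaved case -/
theorem inter {p q r s : ℝ × ℝ} (h1 : Lt p r) (h2 : Lt r q) (h3 : Lt q s)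
    (h : Disjoint (segment ℝ p q) (segment ℝ r s)) :
    det (q - p) (r - p) < 0 ↔ ¬ det (s - r) (q - r) < 0 := by
  obtain ⟨u, hu⟩ : ∃ u, u = r - p := ⟨_, rfl⟩
  obtain ⟨v, hv⟩ : ∃ v, v = q - r := ⟨_, rfl⟩
  obtain ⟨w, hw⟩ : ∃ w, w = s - q := ⟨_, rfl⟩
  have eq1 : det (q - p) (r - p) = - det u v := by
    rw [hu, hv]; unfold det; simp only [Prod.fst_sub, Prod.snd_sub]; ring
  have eq2 : det (s - r) (q - r) = - det v w := by
    rw [hv, hw]; unfold det; simp only [Prod.fst_sub, Prod.snd_sub]; ring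
  have pu : Lt 0 u := by rw [hu]; exact lt_zero_sub h1
  have pv : Lt 0 v := by rw [hv]; exact lt_zero_sub h2
  have pw : Lt 0 w := by rw [hw]; exact lt_zero_sub h3
  have e1 : p + u = r := by rw [hu]; abel
  have e2 : p + u + v = q := by rw [e1, hv]; abel
  have e3 : p + u + v + w = s := by rw [e2, hw]; abel
  have n1 : det u v ≠ 0 := by
    intro h0
    exact Set.disjoint_left.1 h (mem_seg h1 h2 (by rw [eq1, h0, neg_zero]))
      (left_mem_segment ℝ r s)
  have n2 : det v w ≠ 0 := by
    intro h0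
    exact Set.disjoint_left.1 h (right_mem_segment ℝ p q)
      (mem_seg h2 h3 (by rw [eq2, h0, neg_zero]))
  have m : ¬ ((0 < det u v ∧ 0 < det v w ∧ 0 < det u w) ∨
      (det u v < 0 ∧ det v w < 0 ∧ det u w < 0)) := by
    intro hm
    refine meet (p := p) hm ?_
    rwa [e3, e2, e1]
  rw [eq1, eq2]
  constructor
  · intro g1 g2
    have g1' : 0 < det u v := by linarith
    have g2' : 0 < det v w := by linarith
    exact m (Or.inl ⟨g1', g2', det_trans pu pv pw g1' g2'⟩)
  · intro g1
    by_contra g2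
    have g1' : det v w < 0 := lt_of_le_of_ne (by linarith) n2
    have g2' : det u v < 0 := lt_of_le_of_ne (by linarith) n1
    have d1 : 0 < det w v := by unfold det at *; linarith
    have d2 : 0 < det v u := by unfold det at *; linarith
    have d3 := det_trans pw pv pu d1 d2
    have d4 : det u w < 0 := by unfold det at *; linarith
    exact m (Or.inr ⟨g2', g1', d4⟩)

theorem det_sub_lin (p q r s : ℝ × ℝ) (a b : ℝ) (hab : a + b = 1) :
    det (q - p) (a • r + b • s - p) = a * det (q - p) (r - p) + b * det (q - p) (s - p) := by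
  obtain rfl : b = 1 - a := by linarith
  unfold det
  simp only [Prod.fst_sub, Prod.snd_sub, Prod.fst_add, Prod.snd_add, Prod.smul_fst,
    Prod.smul_snd, smul_eq_mul]
  ring

theorem lt_comb {p r s : ℝ × ℝ} (h1 : Lt p r) (h2 : Lt p s) (a b : ℝ) (ha : 0 ≤ a) (hb : 0 ≤ b)
    (hab : a + b = 1) : Lt p (a • r + b • s) := by
  unfold Lt at *
  simp only [Prod.fst_add, Prod.snd_add, Prod.smul_fst, Prod.smul_snd, smul_eq_mul]
  obtain rfl : b = 1 - a := by linarith
  rcases h1 with h1 | ⟨h1, h1'⟩ <;> rcases h2 with h2 | ⟨h2, h2'⟩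
  · left
    rcases ha.lt_or_eq with h | h
    · nlinarith [mul_pos h (sub_pos.2 h1), mul_nonneg hb (sub_pos.2 h2).le]
    · rw [← h]; linarith
  · rcases ha.lt_or_eq with h | h
    · left
      rw [← h2]
      nlinarith [mul_pos h (sub_pos.2 h1)]
    · right
      rw [← h]
      constructor <;> linarith
  · rcases hb.lt_or_eq with h | h
    · left
      rw [← h1]
      nlinarith [mul_pos h (sub_pos.2 h2)]
    · right
      have ha1 : a = 1 := by linarith
      rw [ha1]
      constructor <;> linarith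
  · right
    rw [← h1, ← h2]
    constructor
    · ring
    · rcases ha.lt_or_eq with h | h
      · nlinarith [mul_pos h (sub_pos.2 h1'), mul_nonneg hb (sub_pos.2 h2').le]
      · rw [← h]; linarith

theorem comb_lt {q r s : ℝ × ℝ} (h1 : Lt r q) (h2 : Lt s q) (a b : ℝ) (ha : 0 ≤ a) (hb : 0 ≤ b)
    (hab : a + b = 1) : Lt (a • r + b • s) q := by
  have neg : ∀ {x y : ℝ × ℝ}, Lt x y → Lt (-y) (-x) := by
    intro x y h
    unfold Lt at *
    simp only [Prod.fst_neg, Prod.snd_neg]
    rcases h with h | ⟨h, h'⟩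
    · left; linarith
    · right; constructor <;> linarith
  have h3 := neg (lt_comb (neg h1) (neg h2) a b ha hb hab)
  rwa [smul_neg, smul_neg, ← neg_add, neg_neg, neg_neg] at h3

/-- the nested case -/
theorem nested {p q r s : ℝ × ℝ} (h1 : Lt p r) (h2 : Lt r q) (h3 : Lt p s) (h4 : Lt s q)
    (h : Disjoint (segment ℝ p q) (segment ℝ r s)) :
    det (q - p) (r - p) < 0 ↔ det (q - p) (s - p) < 0 := by
  have key : ∀ a b : ℝ, 0 ≤ a → 0 ≤ b → a + b = 1 →
      a * det (q - p) (r - p) + b * det (q - p) (s - p) ≠ 0 := by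
    intro a b ha hb hab h0
    refine Set.disjoint_left.1 h (mem_seg (lt_comb h1 h3 a b ha hb hab)
      (comb_lt h2 h4 a b ha hb hab) ?_) ⟨a, b, ha, hb, hab, rfl⟩
    rw [det_sub_lin p q r s a b hab, h0]
  have main : ∀ x y : ℝ, (∀ a b : ℝ, 0 ≤ a → 0 ≤ b → a + b = 1 → a * x + b * y ≠ 0) →
      x < 0 → y < 0 := by
    intro x y hk hx
    by_contra hy
    push Not at hy
    have hd : 0 < y - x := by linarith
    refine hk (y / (y - x)) (-x / (y - x)) (div_nonneg hy hd.le) (div_nonneg (by linarith) hd.le)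
      ?_ ?_
    · rw [← add_div, div_eq_one_iff_eq hd.ne']; ring
    · field_simp
      ring
  constructor
  · exact main _ _ key
  · refine main _ _ fun a b ha hb hab h0 => key b a hb ha (by linarith) ?_
    linarith

theorem chi_of {p q r : ℝ × ℝ} (_ : Lt p q) (h1 : Lt p r) (h2 : Lt r q) [Decidable (det (q - p) (r - p) < 0)] :
    chi p q r = if det (q - p) (r - p) < 0 then 1 else 0 := by
  unfold chi
  have h3 : ¬ (Lt q r ∧ Lt r p ∧ det (p - q) (r - q) < 0) := fun h3 => h2.asymm h3.1
  by_cases h4 : det (q - p) (r - p) < 0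
  · rw [if_pos (Or.inl ⟨h1, h2, h4⟩), if_pos h4]
  · rw [if_neg, if_neg h4]
    rintro (h5 | h5)
    · exact h4 h5.2.2
    · exact h3 h5

theorem chi_left {p q r : ℝ × ℝ} (h : Lt p q) (h1 : ¬ Lt p r) : chi p q r = 0 := by
  unfold chi
  rw [if_neg]
  rintro (h5 | h5)
  · exact h1 h5.1
  · exact h1 (h.trans h5.1)

theorem chi_right {p q r : ℝ × ℝ} (h : Lt p q) (h1 : ¬ Lt r q) : chi p q r = 0 := by
  unfold chi
  rw [if_neg]
  rintro (h5 | h5)
  · exact h1 h5.2.1
  · exact h1 (h5.2.1.trans h)

theorem key0 {p q r s : ℝ × ℝ} (h : Disjoint (segment ℝ p q) (segment ℝ r s)) (hpq : Lt p q)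
    (hrs : Lt r s) (hpr : Lt p r) :
    chi p q r + chi p q s + chi r s p + chi r s q +
      (ob p r + ob p s + ob q r + ob q s) = 0 := by
  classical
  have hqr : q ≠ r := fun h1 =>
    Set.disjoint_left.1 h (right_mem_segment ℝ p q) (h1 ▸ left_mem_segment ℝ r s)
  have hqs : q ≠ s := fun h1 =>
    Set.disjoint_left.1 h (right_mem_segment ℝ p q) (h1 ▸ right_mem_segment ℝ r s)
  have hps : Lt p s := hpr.trans hrs
  rw [ob_one hpr, ob_one hps, chi_left hrs hpr.asymm]
  rcases lt_or_gt hqr with h1 | h1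
  · rw [chi_right hpq h1.asymm, chi_right hpq (h1.trans hrs).asymm, chi_left hrs h1.asymm,
      ob_one h1, ob_one (h1.trans hrs)]
    rfl
  · rcases lt_or_gt hqs with h2 | h2
    · have := inter hpr h1 h2 h
      rw [chi_of hpq hpr h1, chi_right hpq h2.asymm, chi_of hrs h1 h2, ob_zero h1.asymm, ob_one h2]
      by_cases h3 : det (s - r) (q - r) < 0
      · rw [if_neg (fun h4 => this.1 h4 h3), if_pos h3]
        rfl
      · rw [if_pos (this.2 h3), if_neg h3]
        rfl
    · have := nested hpr h1 hps h2 h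
      rw [chi_of hpq hpr h1, chi_of hpq hps h2, chi_right hrs h2.asymm, ob_zero h1.asymm,
        ob_zero h2.asymm]
      by_cases h3 : det (q - p) (r - p) < 0
      · rw [if_pos h3, if_pos (this.1 h3)]
        rfl
      · rw [if_neg h3, if_neg (fun h4 => h3 (this.2 h4))]
        rfl

theorem chi_self (p r : ℝ × ℝ) : chi p p r = 0 := by
  unfold chi
  rw [if_neg]
  rintro (h5 | h5)
  · exact h5.1.asymm h5.2.1
  · exact h5.1.asymm h5.2.1

/-- two disjoint segments -/
theorem key {p q r s : ℝ × ℝ} (h : Disjoint (segment ℝ p q) (segment ℝ r s)) :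
    chi p q r + chi p q s + chi r s p + chi r s q +
      (ob p r + ob p s + ob q r + ob q s) = 0 := by
  have hpr : p ≠ r := fun h1 =>
    Set.disjoint_left.1 h (left_mem_segment ℝ p q) (h1 ▸ left_mem_segment ℝ r s)
  have hps : p ≠ s := fun h1 =>
    Set.disjoint_left.1 h (left_mem_segment ℝ p q) (h1 ▸ right_mem_segment ℝ r s)
  have hqr : q ≠ r := fun h1 =>
    Set.disjoint_left.1 h (right_mem_segment ℝ p q) (h1 ▸ left_mem_segment ℝ r s)
  have hqs : q ≠ s := fun h1 =>
    Set.disjoint_left.1 h (right_mem_segment ℝ p q) (h1 ▸ right_mem_segment ℝ r s)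
  by_cases hpq : p = q
  · subst hpq
    rw [chi_self, chi_self]
    linear_combination (chi r s p + ob p r + ob p s) * two_zero
  by_cases hrs : r = s
  · subst hrs
    rw [chi_self, chi_self]
    linear_combination (chi p q r + ob p r + ob q r) * two_zero
  -- order the ends of both segments
  have step1 : ∀ {p q r s : ℝ × ℝ}, Disjoint (segment ℝ p q) (segment ℝ r s) → Lt p q → Lt r s →
      p ≠ r → p ≠ s → q ≠ r → q ≠ s → chi p q r + chi p q s + chi r s p + chi r s q +
      (ob p r + ob p s + ob q r + ob q s) = 0 := by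
    intro p q r s h hpq hrs hpr hps hqr hqs
    rcases lt_or_gt hpr with h1 | h1
    · exact key0 h hpq hrs h1
    · have h2 := key0 h.symm hrs hpq h1
      have e1 := ob_add hpr
      have e2 := ob_add hps
      have e3 := ob_add hqr
      have e4 := ob_add hqs
      linear_combination h2 + e1 + e2 + e3 + e4 + (2 - ob r p - ob s p - ob r q - ob s q) * two_zero
  rcases lt_or_gt hpq with h1 | h1 <;> rcases lt_or_gt hrs with h2 | h2
  · exact step1 h h1 h2 hpr hps hqr hqs
  · have h3 := step1 (p := p) (q := q) (r := s) (s := r) (by rwa [segment_symm ℝ s r]) h1 h2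
      hps hpr hqs hqr
    rw [chi_comm s r p, chi_comm s r q] at h3
    linear_combination h3
  · have h3 := step1 (p := q) (q := p) (r := r) (s := s) (by rwa [segment_symm ℝ q p]) h1 h2
      hqr hqs hpr hps
    rw [chi_comm q p r, chi_comm q p s] at h3
    linear_combination h3
  · have h3 := step1 (p := q) (q := p) (r := s) (s := r)
      (by rwa [segment_symm ℝ q p, segment_symm ℝ s r]) h1 h2 hqs hqr hps hpr
    rw [chi_comm q p s, chi_comm q p r, chi_comm s r q, chi_comm s r p] at h3
    linear_combination h3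

end Vale.Agent.P305.H227
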